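import Vale.Agent.P252.MathlibUsed
import Mathlib.LinearAlgebra.Determinant
import Mathlib.Analysis.InnerProductSpace.PiL2

/-!
# A John-type normalisation lemma

Every bounded convex set with nonempty interior in `ℝⁿ` can be put, by an affine isomorphism,
between the closed unit ball and the closed ball of radius `johnC n`.  (Max-volume simplex.)
-/

open Metric Set Module

namespace Vale.Agent.P252.H474

/-- The outer radius in the normalisation lemma. -/
noncomputable def johnC (n : ℕ) : ℝ := 4 * (n : ℝ) ^ 2 * ((n : ℝ) + 1)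

variable {n : ℕ}

/-- the linear automorphism of `ℝⁿ` given by an invertible matrix -/
noncomputable def matE (M : Matrix (Fin n) (Fin n) ℝ) (h : IsUnit M.det) :
    EuclideanSpace ℝ (Fin n) ≃L[ℝ] EuclideanSpace ℝ (Fin n) :=
  (LinearEquiv.ofLinearMap (Matrix.toLpLin 2 2 M) (Matrix.toLpLin 2 2 M⁻¹)
    (by rw [← Matrix.toLpLin_mul_same, Matrix.mul_nonsing_inv _ h, Matrix.toLpLin_one])
    (by rw [← Matrix.toLpLin_mul_same, Matrix.nonsing_inv_mul _ h,
      Matrix.toLpLin_one])).toContinuousLinearEquiv

lemma matE_apply (M : Matrix (Fin n) (Fin n) ℝ) (h : IsUnit M.det)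
    (y : EuclideanSpace ℝ (Fin n)) (i : Fin n) : matE M h y i = ∑ j, M i j * y j := by
  simp [matE, Matrix.toLpLin_apply, Matrix.mulVec, dotProduct]

/-- the matrix with columns `v j - v0` -/
noncomputable def colM (v : Fin n → EuclideanSpace ℝ (Fin n)) (v0 : EuclideanSpace ℝ (Fin n)) :
    Matrix (Fin n) (Fin n) ℝ := Matrix.of fun i j => v j i - v0 i

lemma continuous_colM_det :
    Continuous fun q : (Fin n → EuclideanSpace ℝ (Fin n)) × EuclideanSpace ℝ (Fin n) =>
      (colM q.1 q.2).det := by
  apply Continuous.matrix_det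
  apply continuous_matrix
  intro i j
  simp only [colM, Matrix.of_apply]
  fun_prop

/-- Max-volume simplex: coordinates of the points of `K` w.r.t. it are in `[-1,1]`. -/
lemma exists_maxSimplex {K : Set (EuclideanSpace ℝ (Fin n))} (hK : IsCompact K)
    (hi : (interior K).Nonempty) :
    ∃ (y : Fin n → EuclideanSpace ℝ (Fin n)) (y0 : EuclideanSpace ℝ (Fin n))
      (h : IsUnit (colM y y0).det), (∀ i, y i ∈ K) ∧ y0 ∈ K ∧
      ∀ z, y0 + matE (colM y y0) h z ∈ K → ∀ i, |z i| ≤ 1 := by
  classical
  set S : Set ((Fin n → EuclideanSpace ℝ (Fin n)) × EuclideanSpace ℝ (Fin n)) :=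
    (Set.pi univ fun _ => K) ×ˢ K with hS
  have hScomp : IsCompact S := (isCompact_univ_pi fun _ => hK).prod hK
  obtain ⟨x0, hx0⟩ := hi
  have hx0K : x0 ∈ K := interior_subset hx0
  have hSne : S.Nonempty := ⟨(fun _ => x0, x0), by simp [hS, hx0K]⟩
  obtain ⟨⟨y, y0⟩, hyS, hmax⟩ := hScomp.exists_isMaxOn hSne
    (f := fun q => |(colM q.1 q.2).det|) (continuous_colM_det.abs.continuousOn)
  have hy : ∀ i, y i ∈ K := fun i => by
    have := hyS.1; simp only [Set.mem_pi, Set.mem_univ, forall_true_left] at this; exact this i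
  have hy0 : y0 ∈ K := hyS.2
  have hmax' : ∀ q ∈ S, |(colM q.1 q.2).det| ≤ |(colM y y0).det| := fun q hq => hmax hq
  -- positivity
  have hpos : 0 < |(colM y y0).det| := by
    obtain ⟨r, hr, hball⟩ := Metric.isOpen_iff.1 isOpen_interior x0 hx0
    have h1 : ((fun i => x0 + (r / 2) • EuclideanSpace.single i (1 : ℝ), x0) :
        (Fin n → EuclideanSpace ℝ (Fin n)) × EuclideanSpace ℝ (Fin n)) ∈ S := by
      refine ⟨?_, hx0K⟩
      intro i _
      apply interior_subset
      apply hball
      simp only [mem_ball, dist_self_add_left, norm_smul, PiLp.norm_single,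
        norm_one, mul_one, Real.norm_eq_abs]
      rw [abs_of_pos (by positivity)]
      linarith
    refine lt_of_lt_of_le ?_ (hmax' _ h1)
    have h2 : colM (fun i => x0 + (r / 2) • EuclideanSpace.single i (1 : ℝ)) x0
        = (r / 2) • (1 : Matrix (Fin n) (Fin n) ℝ) := by
      ext i j
      simp [colM, Matrix.one_apply]
    simp only [h2, Matrix.det_smul, Matrix.det_one]
    have : (r / 2) ^ Fintype.card (Fin n) * 1 ≠ 0 := by positivity
    exact abs_pos.2 this
  have hdet : (colM y y0).det ≠ 0 := abs_pos.1 hpos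
  refine ⟨y, y0, isUnit_iff_ne_zero.2 hdet, hy, hy0, ?_⟩
  intro z hz i
  set M := colM y y0 with hM
  set w := y0 + matE M (isUnit_iff_ne_zero.2 hdet) z with hw
  have hwi : ∀ k, w k - y0 k = (M.mulVec z.ofLp) k := by
    intro k
    have : w k = y0 k + matE M (isUnit_iff_ne_zero.2 hdet) z k := rfl
    rw [this, matE_apply]; simp [Matrix.mulVec, dotProduct]
  have hcr : M.cramer (M.mulVec z.ofLp) i = M.det * z i := by
    rw [Matrix.cramer_eq_adjugate_mulVec, Matrix.mulVec_mulVec, Matrix.adjugate_mul,
      Matrix.smul_mulVec, Matrix.one_mulVec]; rfl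
  have hup : colM (Function.update y i w) y0 = M.updateCol i (M.mulVec z.ofLp) := by
    ext a b
    by_cases hb : b = i
    · subst hb; simp only [colM, Matrix.of_apply, Function.update_self, Matrix.updateCol_self]
      exact hwi a
    · simp [colM, hM, Function.update_of_ne hb, Matrix.updateCol_ne hb]
  have hmem : ((Function.update y i w, y0) :
      (Fin n → EuclideanSpace ℝ (Fin n)) × EuclideanSpace ℝ (Fin n)) ∈ S := by
    refine ⟨?_, hy0⟩
    intro k _
    by_cases hk : k = i
    · subst hk; simpa using hz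
    · simpa [Function.update_of_ne hk] using hy k
  have h3 := hmax' _ hmem
  simp only at h3
  rw [hup, ← Matrix.cramer_apply, hcr, abs_mul] at h3
  exact le_of_mul_le_mul_left (by linarith) hpos

/-- **Normalisation lemma.**  A bounded convex set with nonempty interior is, after an affine
change of variables `y ↦ p + A y`, between the unit ball and the ball of radius `johnC n`. -/
theorem exists_john {K : Set (EuclideanSpace ℝ (Fin n))} (hn : 0 < n) (hK : Convex ℝ K)
    (hb : Bornology.IsBounded K) (hi : (interior K).Nonempty) :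
    ∃ (A : EuclideanSpace ℝ (Fin n) ≃L[ℝ] EuclideanSpace ℝ (Fin n))
      (p : EuclideanSpace ℝ (Fin n)),
      (∀ y ∈ closedBall (0 : EuclideanSpace ℝ (Fin n)) 1, p + A y ∈ interior K) ∧
      (∀ y, p + A y ∈ closure K → y ∈ closedBall (0 : EuclideanSpace ℝ (Fin n)) (johnC n)) := by
  classical
  have hcomp : IsCompact (closure K) := hb.isCompact_closure
  have hcl : Convex ℝ (closure K) := hK.closure
  have hint : interior (closure K) = interior K :=
    hK.interior_closure_eq_interior_of_nonempty_interior hi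
  obtain ⟨y, y0, hu, hy, hy0, hbd⟩ := exists_maxSimplex hcomp (by rwa [hint])
  set M := colM y y0 with hM
  set A0 := matE M hu with hA0
  have hn' : (0 : ℝ) < n := by exact_mod_cast hn
  have hn1 : (1 : ℝ) ≤ n := by exact_mod_cast hn
  -- the inner simplex
  set U : Set (EuclideanSpace ℝ (Fin n)) := {z | (∀ i, 0 < z i) ∧ ∑ i, z i < 1} with hU
  have hUo : IsOpen U := by
    have h1 : IsOpen {z : EuclideanSpace ℝ (Fin n) | ∀ i, 0 < z i} := by
      simp only [Set.ofPred_forall]
      exact isOpen_iInter_of_finite fun i =>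
        isOpen_lt continuous_const (by fun_prop)
    have h2 : IsOpen {z : EuclideanSpace ℝ (Fin n) | ∑ i, z i < 1} :=
      isOpen_lt (by fun_prop) continuous_const
    exact h1.inter h2
  have hUK : ∀ z ∈ U, y0 + A0 z ∈ interior K := by
    rw [← hint]
    have hsub : (fun z => y0 + A0 z) '' U ⊆ closure K := by
      rintro _ ⟨z, ⟨hz1, hz2⟩, rfl⟩
      have hz : y0 + A0 z = (1 - ∑ i, z i) • y0 + ∑ i, z i • y i := by
        ext k
        have : (y0 + A0 z) k = y0 k + A0 z k := rfl
        rw [this, hA0, matE_apply]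
        simp only [hM, colM, Matrix.of_apply, PiLp.add_apply, PiLp.smul_apply, smul_eq_mul,
          WithLp.ofLp_sum, Finset.sum_apply]
        have : ∀ j, (y j k - y0 k) * z j = z j * y j k - y0 k * z j := fun j => by ring
        simp only [this, Finset.sum_sub_distrib, ← Finset.mul_sum]
        ring
      simp only
      rw [hz]
      -- convex combination
      have hs : ∑ i : Option (Fin n), (fun o : Option (Fin n) =>
          Option.elim o (1 - ∑ i, z i) (fun i => z i)) i = 1 := by
        simp [Fintype.sum_option]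
      have := hcl.sum_mem (t := (Finset.univ : Finset (Option (Fin n))))
        (w := fun o : Option (Fin n) => Option.elim o (1 - ∑ i, z i) (fun i => z i))
        (z := fun o : Option (Fin n) => Option.elim o y0 (fun i => y i)) ?_ hs ?_
      · simpa [Fintype.sum_option] using this
      · rintro (_ | i) _
        · simp only [Option.elim]; linarith
        · simpa using (hz1 i).le
      · rintro (_ | i) _
        · simpa using hy0
        · simpa using hy i
    have hop : IsOpen ((fun z => y0 + A0 z) '' U) := by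
      have : (fun z => y0 + A0 z) = (Homeomorph.addLeft y0) ∘ A0.toHomeomorph := rfl
      rw [this, Set.image_comp]
      exact (Homeomorph.isOpenMap _) _ ((Homeomorph.isOpenMap _) _ hUo)
    intro z hz
    exact interior_maximal hsub hop ⟨z, hz, rfl⟩
  -- the centre and radius
  set c : EuclideanSpace ℝ (Fin n) := WithLp.toLp 2 fun _ => 1 / ((n : ℝ) + 1) with hc
  set r : ℝ := 1 / (2 * n * (n + 1)) with hr
  have hrpos : 0 < r := by positivity
  have hcoord : ∀ (y : EuclideanSpace ℝ (Fin n)) (i : Fin n), |y i| ≤ ‖y‖ := fun y i => by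
    simpa using PiLp.norm_apply_le y i
  refine ⟨(ContinuousLinearEquiv.smulLeft (Units.mk0 r hrpos.ne')).trans A0, y0 + A0 c, ?_, ?_⟩
  · intro z hz
    have hz' : ‖z‖ ≤ 1 := by simpa using hz
    have h1 : y0 + A0 c + ((ContinuousLinearEquiv.smulLeft (Units.mk0 r hrpos.ne')).trans A0) z
        = y0 + A0 (c + r • z) := by
      rw [map_add, add_assoc]; rfl
    rw [h1]
    apply hUK
    have hri : ∀ i, |r * z i| ≤ r := fun i => by
      rw [abs_mul, abs_of_pos hrpos]
      exact mul_le_of_le_one_right hrpos.le ((hcoord z i).trans hz')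
    have hci : ∀ i, (c + r • z) i = 1 / ((n : ℝ) + 1) + r * z i := fun i => rfl
    constructor
    · intro i
      rw [hci]
      have h2 := (abs_le.1 (hri i)).1
      have : r < 1 / ((n : ℝ) + 1) := by
        rw [hr]; apply one_div_lt_one_div_of_lt (by positivity); nlinarith
      linarith
    · simp only [hci, Finset.sum_add_distrib, Finset.sum_const, Finset.card_univ,
        Fintype.card_fin, nsmul_eq_mul]
      have h2 : ∑ i, r * z i ≤ ∑ _i : Fin n, r :=
        Finset.sum_le_sum fun i _ => (abs_le.1 (hri i)).2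
      simp only [Finset.sum_const, Finset.card_univ, Fintype.card_fin, nsmul_eq_mul] at h2
      have h3 : (n : ℝ) * r = 1 / (2 * (n + 1)) := by rw [hr]; field_simp
      have h4 : (n : ℝ) * (1 / (n + 1)) = 1 - 1 / (n + 1) := by field_simp; ring
      have h5 : 1 / (2 * ((n : ℝ) + 1)) < 1 / (n + 1) := by
        apply one_div_lt_one_div_of_lt (by positivity); nlinarith
      rw [h4]; linarith
  · intro z hz
    have h1 : y0 + A0 c + ((ContinuousLinearEquiv.smulLeft (Units.mk0 r hrpos.ne')).trans A0) z
        = y0 + A0 (c + r • z) := by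
      rw [map_add, add_assoc]; rfl
    rw [h1] at hz
    have hb := hbd _ hz
    have hci : ∀ i, (c + r • z) i = 1 / ((n : ℝ) + 1) + r * z i := fun i => rfl
    have hzi : ∀ i, |z i| ≤ 2 / r := fun i => by
      have h2 := hb i
      rw [hci] at h2
      have h3 : |r * z i| ≤ 2 := by
        have : (0 : ℝ) < 1 / (n + 1) := by positivity
        have h6 : 1 / ((n : ℝ) + 1) ≤ 1 := by
          rw [div_le_one (by positivity)]; linarith
        rw [abs_le] at h2 ⊢; constructor <;> linarith [h2.1, h2.2]
      rw [abs_mul, abs_of_pos hrpos] at h3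
      rw [le_div_iff₀ hrpos]; linarith
    rw [mem_closedBall_zero_iff, EuclideanSpace.norm_eq]
    have h4 : ∑ i, ‖z i‖ ^ 2 ≤ ∑ _i : Fin n, (2 / r) ^ 2 := Finset.sum_le_sum fun i _ => by
      rw [Real.norm_eq_abs]
      exact pow_le_pow_left₀ (abs_nonneg _) (hzi i) 2
    simp only [Finset.sum_const, Finset.card_univ, Fintype.card_fin, nsmul_eq_mul] at h4
    have h5 : (n : ℝ) * (2 / r) ^ 2 ≤ (johnC n) ^ 2 := by
      have h6 : 2 / r = 4 * n * (n + 1) := by rw [hr]; field_simp; ring
      rw [h6, johnC]
      have h7 : (4 * (n : ℝ) ^ 2 * (n + 1)) ^ 2 = n * (n * (4 * n * (n + 1)) ^ 2) := by ring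
      rw [h7]
      nlinarith [sq_nonneg (4 * (n : ℝ) * (n + 1)), mul_nonneg hn'.le (sq_nonneg (4 * (n : ℝ) * (n + 1)))]
    have hC : 0 ≤ johnC n := by rw [johnC]; positivity
    rw [Real.sqrt_le_left hC]
    exact h4.trans h5

end Vale.Agent.P252.H474
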