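import Vale.Agent.P252.R.Spec
import Vale.Agent.P252.H474.John

/-!
# Maximal determinant normalisation: `Stmt_maxDet`
-/

open Metric Set Module
open scoped ContDiff Topology

namespace Vale.Agent.P252.R

open Vale.Agent.P252.H474

variable {n : ℕ}

/-- the matrix with columns `v j` -/
noncomputable def cM (v : Fin n → En n) : Matrix (Fin n) (Fin n) ℝ := Matrix.of fun i j => v j i

lemma continuous_cM_det : Continuous fun v : Fin n → En n => (cM v).det := by
  apply Continuous.matrix_det
  apply continuous_matrix
  intro i j
  simp only [cM, Matrix.of_apply]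
  fun_prop

lemma matE_single (M : Matrix (Fin n) (Fin n) ℝ) (h : IsUnit M.det) (j k : Fin n) :
    matE M h (EuclideanSpace.single j 1) k = M k j := by
  rw [matE_apply]
  simp

/-- Cramer's rule bound: maximality of the determinant against replacing column `j` by `y`. -/
lemma abs_coord_le_one {v : Fin n → En n} (h : IsUnit (cM v).det) {j : Fin n} {y : En n}
    (hmax : |(cM (Function.update v j y)).det| ≤ |(cM v).det|) :
    |(matE (cM v) h).symm y j| ≤ 1 := by
  classical
  set z := (matE (cM v) h).symm y with hz
  have hy : y = matE (cM v) h z := by rw [hz, ContinuousLinearEquiv.apply_symm_apply]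
  set M := cM v with hM
  have hyi : ∀ k, y k = (M.mulVec z.ofLp) k := by
    intro k; rw [hy, matE_apply]; simp [Matrix.mulVec, dotProduct, hM]
  have hcr : M.cramer (M.mulVec z.ofLp) j = M.det * z j := by
    rw [Matrix.cramer_eq_adjugate_mulVec, Matrix.mulVec_mulVec, Matrix.adjugate_mul,
      Matrix.smul_mulVec, Matrix.one_mulVec]; rfl
  have hup : cM (Function.update v j y) = M.updateCol j (M.mulVec z.ofLp) := by
    ext a b
    by_cases hb : b = j
    · subst hb; simp only [cM, Matrix.of_apply, Function.update_self, Matrix.updateCol_self]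
      exact hyi a
    · simp [cM, hM, Function.update_of_ne hb, Matrix.updateCol_ne hb]
  rw [hup, ← Matrix.cramer_apply, hcr, abs_mul] at hmax
  exact le_of_mul_le_mul_left (by linarith) (abs_pos.2 h.ne_zero)

lemma cM_update (w : Fin n → En n) (j : Fin n) (z : En n) :
    cM (Function.update w j z) = (cM w).updateCol j z.ofLp := by
  ext a b
  by_cases hb : b = j
  · subst hb; simp [cM]
  · simp [cM, Function.update_of_ne hb, Matrix.updateCol_ne hb]

lemma cM_det_update_eq_zero {w : Fin n → En n} {j : Fin n} {Y : Set (En n)}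
    (h : ∀ y ∈ Y, (cM (Function.update w j y)).det = 0) {z : En n}
    (hz : z ∈ Submodule.span ℝ Y) : (cM (Function.update w j z)).det = 0 := by
  induction hz using Submodule.span_induction with
  | mem x hx => exact h x hx
  | zero => rw [cM_update]; exact Matrix.det_eq_zero_of_column_eq_zero j (by simp)
  | add x y _ _ hx hy =>
    rw [cM_update] at hx hy ⊢
    rw [WithLp.ofLp_add, Matrix.det_updateCol_add, hx, hy, add_zero]
  | smul a x _ hx =>
    rw [cM_update] at hx ⊢
    rw [WithLp.ofLp_smul, Matrix.det_updateCol_smul, hx, mul_zero]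

lemma cM_det_single : (cM fun j : Fin n => (EuclideanSpace.single j (1 : ℝ) : En n)).det = 1 := by
  have : cM (fun j : Fin n => (EuclideanSpace.single j (1 : ℝ) : En n)) = 1 := by
    ext a b; simp [cM, Matrix.one_apply]
  rw [this, Matrix.det_one]

/-- If all the determinants with columns `e_i` (`i<k`) and `w_j ∈ Y` (`j ≥ k`) vanish, then
`Y` does not span the transversal space. -/
lemma exists_det_ne_zero (k : ℕ) {Y : Set (En n)}
    (hspan : ∀ j : Fin n, k ≤ j.val → EuclideanSpace.single j (1 : ℝ) ∈ Submodule.span ℝ Y) :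
    ∃ w : Fin n → En n, (∀ i : Fin n, i.val < k → w i = EuclideanSpace.single i (1 : ℝ)) ∧
      (∀ i : Fin n, k ≤ i.val → w i ∈ Y) ∧ (cM w).det ≠ 0 := by
  classical
  by_contra hcon
  push Not at hcon
  have key : ∀ s : Finset (Fin n), ∀ w : Fin n → En n,
      (∀ i : Fin n, i.val < k → w i = EuclideanSpace.single i (1 : ℝ)) →
      (∀ i : Fin n, k ≤ i.val → i ∉ s → w i ∈ Y) →
      (∀ i : Fin n, k ≤ i.val → i ∈ s → w i ∈ Submodule.span ℝ Y) → (cM w).det = 0 := by
    intro s
    induction s using Finset.induction_on with
    | empty => intro w h1 h2 _; exact hcon w h1 fun i hi => h2 i hi (by simp)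
    | insert j s hj ih =>
      intro w h1 h2 h3
      by_cases hjk : j.val < k
      · refine ih w h1 (fun i hi his => h2 i hi ?_) (fun i hi his => h3 i hi (by simp [his]))
        simp only [Finset.mem_insert, not_or]
        exact ⟨fun h => by subst h; omega, his⟩
      · have hw : w = Function.update w j (w j) := by simp
        rw [hw]
        refine cM_det_update_eq_zero (Y := Y) ?_ (h3 j (not_lt.1 hjk) (by simp))
        intro y hy
        refine ih _ ?_ ?_ ?_
        · intro i hi
          rw [Function.update_of_ne (fun h => by subst h; omega)]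
          exact h1 i hi
        · intro i hi his
          by_cases hij : i = j
          · subst hij; simpa using hy
          · rw [Function.update_of_ne hij]
            exact h2 i hi (by simp [hij, his])
        · intro i hi his
          have hij : i ≠ j := fun h => hj (h ▸ his)
          rw [Function.update_of_ne hij]
          exact h3 i hi (by simp [his])
  have := key Finset.univ (fun j => EuclideanSpace.single j (1 : ℝ)) (fun _ _ => rfl)
    (fun i _ h => absurd (Finset.mem_univ i) h) (fun i hi _ => hspan i hi)
  rw [cM_det_single] at this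
  exact one_ne_zero this

/-- **Maximal determinant normalisation, span form.** -/
theorem maxDet_span (k : ℕ) {Y : Set (En n)} (hY : IsCompact Y)
    (h0 : ∀ y ∈ Y, ∀ i : Fin n, i.val < k → y i = 0)
    (hspan : ∀ j : Fin n, k ≤ j.val → EuclideanSpace.single j (1 : ℝ) ∈ Submodule.span ℝ Y) :
    ∃ T : En n ≃L[ℝ] En n, (∀ x, ∀ i : Fin n, i.val < k → T x i = x i) ∧
      (∀ i : Fin n, i.val < k → T (EuclideanSpace.single i 1) = EuclideanSpace.single i 1) ∧
      (∀ j : Fin n, k ≤ j.val → T (EuclideanSpace.single j 1) ∈ Y) ∧
      ∀ y ∈ Y, ∀ j : Fin n, |T.symm y j| ≤ 1 := by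
  classical
  set S : Set (Fin n → En n) := Set.pi univ fun i : Fin n =>
    if i.val < k then {EuclideanSpace.single i (1 : ℝ)} else Y with hS
  have hScomp : IsCompact S := isCompact_univ_pi fun i => by
    split_ifs
    · exact isCompact_singleton
    · exact hY
  obtain ⟨w, hw1, hw2, hwdet'⟩ := exists_det_ne_zero k hspan
  have hwS : w ∈ S := by
    intro i _
    by_cases hi : i.val < k
    · simp [hi, hw1 i hi]
    · simp only [hi, if_false]
      exact hw2 i (not_lt.1 hi)
  have hwdet : 0 < |(cM w).det| := abs_pos.2 hwdet'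
  obtain ⟨v, hvS, hmax⟩ := hScomp.exists_isMaxOn ⟨w, hwS⟩
    (f := fun v => |(cM v).det|) continuous_cM_det.abs.continuousOn
  have hmax' : ∀ q ∈ S, |(cM q).det| ≤ |(cM v).det| := fun q hq => hmax hq
  have hpos : 0 < |(cM v).det| := hwdet.trans_le (hmax' w hwS)
  have hu : IsUnit (cM v).det := isUnit_iff_ne_zero.2 (abs_pos.1 hpos)
  have hv1 : ∀ i : Fin n, i.val < k → v i = EuclideanSpace.single i (1 : ℝ) := fun i hi => by
    have := hvS i (mem_univ i)
    simpa [hi] using this
  have hv2 : ∀ i : Fin n, k ≤ i.val → v i ∈ Y := fun i hi => by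
    have := hvS i (mem_univ i)
    simpa [not_lt.2 hi] using this
  have hT1 : ∀ (x : En n) (i : Fin n), i.val < k → matE (cM v) hu x i = x i := by
    intro x i hi
    rw [matE_apply, Finset.sum_eq_single i]
    · simp [cM, hv1 i hi]
    · intro j _ hj
      by_cases hjk : j.val < k
      · simp [cM, hv1 j hjk, hj.symm]
      · simp [cM, h0 _ (hv2 j (not_lt.1 hjk)) i hi]
    · simp
  refine ⟨matE (cM v) hu, hT1, ?_, ?_, ?_⟩
  · intro i hi
    ext a
    rw [matE_single, cM, Matrix.of_apply, hv1 i hi]
  · intro j hj
    have : matE (cM v) hu (EuclideanSpace.single j 1) = v j := by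
      ext a
      rw [matE_single, cM, Matrix.of_apply]
    rw [this]; exact hv2 j hj
  · intro y hy j
    by_cases hj : j.val < k
    · rw [← hT1 ((matE (cM v) hu).symm y) j hj, ContinuousLinearEquiv.apply_symm_apply,
        h0 y hy j hj]
      simp
    · apply abs_coord_le_one
      apply hmax'
      intro i _
      by_cases hij : i = j
      · subst hij; simpa [hj] using hy
      · simp only [Function.update_of_ne hij]
        exact hvS i (mem_univ i)

/-- `Stmt_maxDet`. -/
theorem maxDet (n k : ℕ) : Stmt_maxDet n k := by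
  intro Y hY h0 ⟨r, hr, hrY⟩
  refine maxDet_span k hY h0 fun j hj => ?_
  have h1 : (EuclideanSpace.single j (1 : ℝ) : En n) = r⁻¹ • EuclideanSpace.single j r := by
    ext a
    by_cases ha : a = j
    · subst ha; simp [hr.ne']
    · simp [ha]
  rw [h1]
  exact Submodule.smul_mem _ _ (Submodule.subset_span (hrY j hj))

end Vale.Agent.P252.R
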