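import Vale.Agent.P252.H474.Trans
import Vale.Agent.P252.H474.MaxDet

/-!
# Normalisation of a section: `Stmt_normalise`
-/

open Metric Set Module
open scoped ContDiff Topology

namespace Vale.Agent.P252.R

open Vale.Agent.P252.H474

variable {n : ℕ}

/-- `brg u a (a + T x) / t` is a change of variables `tr`. -/
lemma brg_div_eq_tr (u : En n → ℝ) (a : En n) (T : En n ≃L[ℝ] En n) (t : ℝ) :
    (fun x => brg u a (a + T x) / t) =
      tr u T a t⁻¹ (fun i => -(t⁻¹ * ∑ k, mT T k i * pd k u a)) (-(t⁻¹ * u a)) := by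
  ext x
  have h1 : ∀ i, (a + T x) i - a i = T x i := fun i => by
    have : (a + T x) i = a i + T x i := rfl
    rw [this]; ring
  have h2 : ∑ i, pd i u a * T x i = ∑ i, (∑ k, mT T k i * pd k u a) * x i := by
    simp only [T_apply, Finset.mul_sum, Finset.sum_mul]
    rw [Finset.sum_comm]
    exact Finset.sum_congr rfl fun i _ => Finset.sum_congr rfl fun j _ => by ring
  simp only [brg, tr, h1, h2, neg_mul, Finset.sum_neg_distrib, mul_assoc, ← Finset.mul_sum,
    add_comm (T x) a]
  ring

lemma set_eq_trD (Ω : Set (En n)) (a : En n) (T : En n ≃L[ℝ] En n) :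
    {x | a + T x ∈ Ω} = trD Ω T a := by
  ext x; simp [trD, add_comm]

/-- **D5.** -/
theorem normalise (n : ℕ) (hsec : Stmt_secCompact n) : Stmt_normalise n := by
  intro hn Ω u hA a ha t ht
  have hsc : SC Ω u := hA.toSC
  have hcomp : IsCompact {x | x ∈ Ω ∧ brg u a x ≤ t} := hsec Ω u hsc hA.cv hA.cl a ha t
  set Y : Set (En n) := {y | a + y ∈ Ω ∧ brg u a (a + y) ≤ t} with hY
  have hYc : IsCompact Y := by
    have : Y = (fun x => x + (-a)) '' {x | x ∈ Ω ∧ brg u a x ≤ t} := by
      ext y
      simp only [hY, Set.mem_ofPred_eq, Set.mem_image]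
      constructor
      · rintro ⟨h1, h2⟩
        exact ⟨a + y, ⟨h1, h2⟩, by abel⟩
      · rintro ⟨x, ⟨h1, h2⟩, rfl⟩
        have : a + (x + -a) = x := by abel
        rw [this]; exact ⟨h1, h2⟩
    rw [this]
    exact hcomp.image (by fun_prop)
  -- small balls are in `Y`
  have hcont : ContinuousAt (fun y => brg u a (a + y)) 0 := by
    have h1 : ContinuousAt u (a + 0) := by
      rw [add_zero]; exact (hsc.contDiffAt ha).continuousAt
    have h2 : ContinuousAt (fun y : En n => u (a + y)) 0 :=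
      ContinuousAt.comp (f := fun y : En n => a + y) (g := u) h1 (by fun_prop)
    unfold brg
    refine (h2.sub continuousAt_const).sub ?_
    have h3 : Continuous fun y : En n => ∑ i, pd i u a * ((a + y) i - a i) := by fun_prop
    exact h3.continuousAt
  have h0 : brg u a (a + 0) = 0 := by simp [brg]
  have hnear : ∀ᶠ y in 𝓝 (0 : En n), a + y ∈ Ω ∧ brg u a (a + y) ≤ t := by
    have h1 : ∀ᶠ y in 𝓝 (0 : En n), a + y ∈ Ω := by
      have hc : ContinuousAt (fun y : En n => a + y) 0 := by fun_prop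
      exact hc.eventually (hsc.op.mem_nhds (by simpa using ha))
    have h2 : ∀ᶠ y in 𝓝 (0 : En n), brg u a (a + y) < t :=
      hcont.eventually_lt continuousAt_const (by rw [h0]; exact ht)
    filter_upwards [h1, h2] with y hy1 hy2
    exact ⟨hy1, hy2.le⟩
  obtain ⟨r, hr, hball⟩ := Metric.nhds_basis_closedBall.mem_iff.mp hnear
  obtain ⟨T, -, -, hT3, hT4⟩ := maxDet n 0 Y hYc (fun _ _ i hi => absurd hi (Nat.not_lt_zero _))
    ⟨r, hr, fun j _ => by
      have : EuclideanSpace.single j r ∈ closedBall (0 : En n) r := by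
        rw [mem_closedBall_zero_iff, PiLp.norm_single, Real.norm_eq_abs, abs_of_pos hr]
      exact hball this⟩
  refine ⟨T, ?_⟩
  have hti : 0 < t⁻¹ := inv_pos.2 ht
  have hAMC := trans n Ω u T a t⁻¹ (fun i => -(t⁻¹ * ∑ k, mT T k i * pd k u a))
    (-(t⁻¹ * u a)) hti hA
  rw [← brg_div_eq_tr, ← set_eq_trD] at hAMC
  refine { hAMC with
    zero_mem := by simpa using ha
    u_zero := by simp [brg]
    gr_zero := ?_
    simplex := fun j => ?_
    box := fun x hx hx1 i => ?_ }
  · rw [brg_div_eq_tr]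
    ext i
    have hd : DifferentiableAt ℝ u (T 0 + a) := by
      rw [map_zero, zero_add]; exact hsc.diffAt ha
    simp [gr, pd_tr hd]
  · have h := hT3 j (Nat.zero_le _)
    refine ⟨h.1, ?_⟩
    rw [div_le_one ht]; exact h.2
  · have h2 : brg u a (a + T x) ≤ t := by rwa [div_le_one ht] at hx1
    have := hT4 (T x) ⟨hx, h2⟩ i
    rwa [ContinuousLinearEquiv.symm_apply_apply] at this

end Vale.Agent.P252.R
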