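import Vale.Agent.P252.MathlibUsed
import Vale.Agent.P252.Defs
import Vale.Agent.P252.BernsteinDefs

/-!
# Behaviour of `pd`, `hess`, `wfun`, `AffineMaximalOn` under affine changes of variables

`T y = p + A y`, `A` a continuous linear automorphism of `ℝⁿ`,
`v y = c * u (p + A y) + ℓ y + d` with `c > 0`, `ℓ` linear.
-/

open Metric Set Module
open scoped ContDiff

namespace Vale.Agent.P252.H474

variable {n : ℕ}

/-- the matrix of a linear automorphism of `ℝⁿ` -/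
noncomputable def linM (A : EuclideanSpace ℝ (Fin n) →L[ℝ] EuclideanSpace ℝ (Fin n)) :
    Matrix (Fin n) (Fin n) ℝ := Matrix.of fun k i => A (EuclideanSpace.single i 1) k

lemma linM_apply (A : EuclideanSpace ℝ (Fin n) →L[ℝ] EuclideanSpace ℝ (Fin n)) (k i : Fin n) :
    linM A k i = A (EuclideanSpace.single i 1) k := rfl

lemma single_sum (x : EuclideanSpace ℝ (Fin n)) :
    x = ∑ k, x k • EuclideanSpace.single k (1 : ℝ) := by
  ext i
  simp [WithLp.ofLp_sum, Finset.sum_apply, Pi.single_apply]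

lemma linM_mulVec (A : EuclideanSpace ℝ (Fin n) →L[ℝ] EuclideanSpace ℝ (Fin n))
    (x : EuclideanSpace ℝ (Fin n)) (k : Fin n) : A x k = ∑ i, linM A k i * x i := by
  conv_lhs => rw [single_sum x, map_sum]
  simp [WithLp.ofLp_sum, Finset.sum_apply, linM, mul_comm]

lemma linM_comp (A B : EuclideanSpace ℝ (Fin n) →L[ℝ] EuclideanSpace ℝ (Fin n)) :
    linM (A ∘L B) = linM A * linM B := by
  ext k i
  rw [linM_apply, Matrix.mul_apply, ContinuousLinearMap.comp_apply, linM_mulVec]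
  rfl

lemma linM_id : linM (ContinuousLinearMap.id ℝ (EuclideanSpace ℝ (Fin n))) = 1 := by
  ext k i
  simp [linM_apply, Matrix.one_apply]

lemma isUnit_det_linM (A : EuclideanSpace ℝ (Fin n) ≃L[ℝ] EuclideanSpace ℝ (Fin n)) :
    IsUnit (linM (A : EuclideanSpace ℝ (Fin n) →L[ℝ] EuclideanSpace ℝ (Fin n))).det := by
  have h : linM (A : EuclideanSpace ℝ (Fin n) →L[ℝ] EuclideanSpace ℝ (Fin n)) *
      linM (A.symm : EuclideanSpace ℝ (Fin n) →L[ℝ] EuclideanSpace ℝ (Fin n)) = 1 := by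
    rw [← linM_comp, ContinuousLinearEquiv.coe_comp_coe_symm, linM_id]
  exact Matrix.isUnit_det_of_right_inverse h

lemma linM_det_eq (A : EuclideanSpace ℝ (Fin n) →L[ℝ] EuclideanSpace ℝ (Fin n)) :
    (linM A).det = LinearMap.det (A : EuclideanSpace ℝ (Fin n) →ₗ[ℝ] EuclideanSpace ℝ (Fin n)) := by
  rw [← LinearMap.det_toMatrix (EuclideanSpace.basisFun (Fin n) ℝ).toBasis]
  congr 1

/-- derivative of a function composed with an affine map -/
lemma pd_comp {f : EuclideanSpace ℝ (Fin n) → ℝ} (p : EuclideanSpace ℝ (Fin n))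
    (A : EuclideanSpace ℝ (Fin n) →L[ℝ] EuclideanSpace ℝ (Fin n)) (y : EuclideanSpace ℝ (Fin n))
    (hf : DifferentiableAt ℝ f (p + A y)) (i : Fin n) :
    pd i (fun z => f (p + A z)) y = ∑ k, linM A k i * pd k f (p + A y) := by
  have h1 : HasFDerivAt (fun z => f (p + A z)) ((fderiv ℝ f (p + A y)) ∘L A) y := by
    have h2 : HasFDerivAt (fun z => p + A z) A y := by
      simpa using A.hasFDerivAt.const_add p
    exact hf.hasFDerivAt.comp y h2
  rw [pd, h1.fderiv, ContinuousLinearMap.comp_apply, single_sum (A (EuclideanSpace.single i 1)),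
    map_sum]
  simp [pd, linM_apply]

lemma pd_congr {f g : EuclideanSpace ℝ (Fin n) → ℝ} {y : EuclideanSpace ℝ (Fin n)}
    (h : f =ᶠ[nhds y] g) (i : Fin n) : pd i f y = pd i g y := by
  rw [pd, pd, h.fderiv_eq]

lemma pd_eventually_congr {f g : EuclideanSpace ℝ (Fin n) → ℝ} {y : EuclideanSpace ℝ (Fin n)}
    (h : f =ᶠ[nhds y] g) (i : Fin n) : pd i f =ᶠ[nhds y] pd i g := by
  filter_upwards [h.fderiv (𝕜 := ℝ)] with z hz
  rw [pd, pd, hz]

lemma hess_congr {f g : EuclideanSpace ℝ (Fin n) → ℝ} {y : EuclideanSpace ℝ (Fin n)}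
    (h : f =ᶠ[nhds y] g) : hess f y = hess g y := by
  ext i j
  exact pd_congr (pd_eventually_congr h j) i

lemma contDiffOn_pd {f : EuclideanSpace ℝ (Fin n) → ℝ} {Ω : Set (EuclideanSpace ℝ (Fin n))}
    (hΩ : IsOpen Ω) {m k : WithTop ℕ∞} (hf : ContDiffOn ℝ m f Ω) (hk : k + 1 ≤ m) (i : Fin n) :
    ContDiffOn ℝ k (pd i f) Ω :=
  (hf.fderiv_of_isOpen hΩ hk).clm_apply contDiffOn_const

lemma pd_add {f g : EuclideanSpace ℝ (Fin n) → ℝ} {y : EuclideanSpace ℝ (Fin n)}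
    (hf : DifferentiableAt ℝ f y) (hg : DifferentiableAt ℝ g y) (i : Fin n) :
    pd i (fun z => f z + g z) y = pd i f y + pd i g y := by
  simp only [pd]; rw [fderiv_fun_add hf hg]; rfl

lemma pd_const_mul {f : EuclideanSpace ℝ (Fin n) → ℝ} {y : EuclideanSpace ℝ (Fin n)}
    (hf : DifferentiableAt ℝ f y) (c : ℝ) (i : Fin n) :
    pd i (fun z => c * f z) y = c * pd i f y := by
  simp only [pd]; rw [fderiv_const_mul hf]; rfl

lemma pd_clm (ℓ : EuclideanSpace ℝ (Fin n) →L[ℝ] ℝ) (d : ℝ) (y : EuclideanSpace ℝ (Fin n))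
    (i : Fin n) : pd i (fun z => ℓ z + d) y = ℓ (EuclideanSpace.single i 1) := by
  simp only [pd]; rw [fderiv_add_const, ContinuousLinearMap.fderiv]

lemma pd_const (d : ℝ) (y : EuclideanSpace ℝ (Fin n)) (i : Fin n) :
    pd i (fun _ => d) y = 0 := by
  simp [pd]

lemma hess_clm (ℓ : EuclideanSpace ℝ (Fin n) →L[ℝ] ℝ) (d : ℝ) (y : EuclideanSpace ℝ (Fin n)) :
    hess (fun z => ℓ z + d) y = 0 := by
  ext i j
  have : pd j (fun z => ℓ z + d) = fun _ => ℓ (EuclideanSpace.single j 1) := by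
    ext z; exact pd_clm ℓ d z j
  simp [hess, this, pd_const]

lemma pd_sum {ι : Type*} (s : Finset ι) {F : ι → EuclideanSpace ℝ (Fin n) → ℝ}
    {y : EuclideanSpace ℝ (Fin n)} (h : ∀ k ∈ s, DifferentiableAt ℝ (F k) y) (i : Fin n) :
    pd i (fun z => ∑ k ∈ s, F k z) y = ∑ k ∈ s, pd i (F k) y := by
  simp only [pd]
  rw [fderiv_fun_sum h, _root_.sum_apply]

/-- Hessian of a function composed with an affine map. -/
lemma hess_comp {f : EuclideanSpace ℝ (Fin n) → ℝ} (p : EuclideanSpace ℝ (Fin n))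
    (A : EuclideanSpace ℝ (Fin n) →L[ℝ] EuclideanSpace ℝ (Fin n)) (y : EuclideanSpace ℝ (Fin n))
    {Ω : Set (EuclideanSpace ℝ (Fin n))} (hΩ : IsOpen Ω) (hf : ContDiffOn ℝ 2 f Ω)
    (hy : p + A y ∈ Ω) :
    hess (fun z => f (p + A z)) y = (linM A).transpose * hess f (p + A y) * linM A := by
  have hcont : Continuous fun z => p + A z := by fun_prop
  have hnear : ∀ᶠ z in nhds y, p + A z ∈ Ω := hcont.continuousAt.eventually (hΩ.mem_nhds hy)
  ext i j
  have h1 : pd j (fun z => f (p + A z)) =ᶠ[nhds y]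
      fun z => ∑ k, linM A k j * pd k f (p + A z) := by
    filter_upwards [hnear] with z hz
    exact pd_comp p A z ((hf.differentiableOn (by norm_num)).differentiableAt (hΩ.mem_nhds hz)) j
  have hd : ∀ k, DifferentiableAt ℝ (pd k f) (p + A y) := fun k =>
    ((contDiffOn_pd hΩ hf (by norm_num : (1 : WithTop ℕ∞) + 1 ≤ 2) k).differentiableOn
      (by norm_num)).differentiableAt (hΩ.mem_nhds hy)
  have hd' : ∀ k, DifferentiableAt ℝ (fun z => pd k f (p + A z)) y := fun k => by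
    have := (hd k).comp y (f := fun z => p + A z) (by fun_prop)
    exact this
  have h2 : pd i (fun z => ∑ k, linM A k j * pd k f (p + A z)) y
      = ∑ k, linM A k j * pd i (fun z => pd k f (p + A z)) y := by
    rw [pd_sum Finset.univ (fun k _ => (hd' k).const_mul _)]
    exact Finset.sum_congr rfl fun k _ => pd_const_mul (hd' k) _ i
  simp only [hess, Matrix.of_apply, Matrix.mul_apply, Matrix.transpose_apply]
  rw [pd_congr h1 i, h2]
  refine Finset.sum_congr rfl fun k _ => ?_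
  rw [pd_comp p A y (hd k) i, mul_comm]

/-- the affinely changed function -/
noncomputable def chg (u : EuclideanSpace ℝ (Fin n) → ℝ) (c : ℝ) (p : EuclideanSpace ℝ (Fin n))
    (A : EuclideanSpace ℝ (Fin n) ≃L[ℝ] EuclideanSpace ℝ (Fin n))
    (ℓ : EuclideanSpace ℝ (Fin n) →L[ℝ] ℝ) (d : ℝ) : EuclideanSpace ℝ (Fin n) → ℝ :=
  fun y => c * u (p + A y) + (ℓ y + d)

section chg

variable {u : EuclideanSpace ℝ (Fin n) → ℝ} {c : ℝ} {p : EuclideanSpace ℝ (Fin n)}
  {A : EuclideanSpace ℝ (Fin n) ≃L[ℝ] EuclideanSpace ℝ (Fin n)}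
  {ℓ : EuclideanSpace ℝ (Fin n) →L[ℝ] ℝ} {d : ℝ} {Ω : Set (EuclideanSpace ℝ (Fin n))}

lemma isOpen_pre (hΩ : IsOpen Ω) : IsOpen {y | p + A y ∈ Ω} :=
  hΩ.preimage (by fun_prop : Continuous fun y => p + A y)

lemma convex_pre (hΩ : Convex ℝ Ω) : Convex ℝ {y | p + A y ∈ Ω} := by
  intro y hy z hz a b ha hb hab
  have : p + A (a • y + b • z) = a • (p + A y) + b • (p + A z) := by
    rw [map_add, map_smul, map_smul, smul_add, smul_add]
    have : p = a • p + b • p := by rw [← add_smul, hab, one_smul]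
    nth_rewrite 1 [this]; abel
  simp only [Set.mem_ofPred_eq, this]
  exact hΩ hy hz ha hb hab

lemma nonempty_pre (hΩ : Ω.Nonempty) : {y | p + A y ∈ Ω}.Nonempty := by
  obtain ⟨x, hx⟩ := hΩ
  exact ⟨A.symm (x - p), by simpa using hx⟩

lemma contDiff_pAy : ContDiff ℝ ∞ fun y : EuclideanSpace ℝ (Fin n) => p + A y :=
  contDiff_const.add A.contDiff

lemma contDiffOn_comp {m : ℕ∞} (hu : ContDiffOn ℝ m u Ω) :
    ContDiffOn ℝ m (fun y => u (p + A y)) {y | p + A y ∈ Ω} :=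
  hu.comp ((contDiff_pAy (p := p) (A := A)).of_le (by exact_mod_cast le_top)).contDiffOn
    (fun _ h => h)

lemma contDiffOn_chg {m : ℕ∞} (hu : ContDiffOn ℝ m u Ω) :
    ContDiffOn ℝ m (chg u c p A ℓ d) {y | p + A y ∈ Ω} :=
  (contDiffOn_const.mul (contDiffOn_comp hu)).add (ℓ.contDiff.contDiffOn.add contDiffOn_const)

lemma pd_chg {y : EuclideanSpace ℝ (Fin n)} (hu : DifferentiableAt ℝ u (p + A y)) (i : Fin n) :
    pd i (chg u c p A ℓ d) y =
      c * ∑ k, linM (A : EuclideanSpace ℝ (Fin n) →L[ℝ] EuclideanSpace ℝ (Fin n)) k i *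
        pd k u (p + A y) + ℓ (EuclideanSpace.single i 1) := by
  have h1 : DifferentiableAt ℝ (fun z => u (p + A z)) y :=
    hu.comp y (f := fun z => p + A z) (by fun_prop)
  unfold chg
  rw [pd_add (h1.const_mul c) (by fun_prop), pd_const_mul h1, pd_clm]
  congr 2
  exact pd_comp p (A : EuclideanSpace ℝ (Fin n) →L[ℝ] EuclideanSpace ℝ (Fin n)) y hu i

/-- Hessian of the affinely changed function. -/
lemma hess_chg (hΩ : IsOpen Ω) (hu : ContDiffOn ℝ 2 u Ω) {y : EuclideanSpace ℝ (Fin n)}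
    (hy : p + A y ∈ Ω) :
    hess (chg u c p A ℓ d) y =
      c • ((linM (A : EuclideanSpace ℝ (Fin n) →L[ℝ] EuclideanSpace ℝ (Fin n))).transpose *
        hess u (p + A y) * linM (A : EuclideanSpace ℝ (Fin n) →L[ℝ] EuclideanSpace ℝ (Fin n))) := by
  have hcont : Continuous fun z => p + A z := by fun_prop
  have hnear : ∀ᶠ z in nhds y, p + A z ∈ Ω := hcont.continuousAt.eventually (hΩ.mem_nhds hy)
  have hud : ∀ x ∈ Ω, DifferentiableAt ℝ u x := fun x hx =>
    (hu.differentiableOn (by norm_num)).differentiableAt (hΩ.mem_nhds hx)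
  have hcomp := hess_comp p (A : EuclideanSpace ℝ (Fin n) →L[ℝ] EuclideanSpace ℝ (Fin n)) y hΩ
    hu hy
  simp only [ContinuousLinearEquiv.coe_coe] at hcomp
  rw [← hcomp]
  ext i j
  have hpdj : pd j (chg u c p A ℓ d) =ᶠ[nhds y]
      fun z => c * pd j (fun z => u (p + A z)) z + ℓ (EuclideanSpace.single j 1) := by
    filter_upwards [hnear] with z hz
    have h1 : DifferentiableAt ℝ (fun z => u (p + A z)) z :=
      (hud _ hz).comp z (f := fun z => p + A z) (by fun_prop)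
    unfold chg
    rw [pd_add (h1.const_mul c) (by fun_prop), pd_const_mul h1, pd_clm]
  have hopen : IsOpen {z | p + A z ∈ Ω} := isOpen_pre hΩ
  have hc2 : ContDiffOn ℝ 2 (fun z => u (p + A z)) {z | p + A z ∈ Ω} :=
    contDiffOn_comp (m := 2) (by exact_mod_cast hu)
  have hdj : DifferentiableAt ℝ (pd j fun z => u (p + A z)) y :=
    ((contDiffOn_pd hopen hc2 (by norm_num : (1 : WithTop ℕ∞) + 1 ≤ 2) j).differentiableOn
      (by norm_num)).differentiableAt (hopen.mem_nhds hy)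
  simp only [hess, Matrix.of_apply, Matrix.smul_apply, smul_eq_mul]
  rw [pd_congr hpdj i, pd_add (hdj.const_mul c) (by fun_prop), pd_const_mul hdj, pd_const]
  simp

lemma linM_inj (A : EuclideanSpace ℝ (Fin n) ≃L[ℝ] EuclideanSpace ℝ (Fin n)) :
    Function.Injective
      (linM (A : EuclideanSpace ℝ (Fin n) →L[ℝ] EuclideanSpace ℝ (Fin n))).mulVec :=
  Matrix.mulVec_injective_of_isUnit ((Matrix.isUnit_iff_isUnit_det _).2 (isUnit_det_linM A))

lemma posDef_chg (hc : 0 < c) (hΩ : IsOpen Ω) (hu : ContDiffOn ℝ 2 u Ω)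
    {y : EuclideanSpace ℝ (Fin n)} (hy : p + A y ∈ Ω) (hp : (hess u (p + A y)).PosDef) :
    (hess (chg u c p A ℓ d) y).PosDef := by
  rw [hess_chg hΩ hu hy]
  refine Matrix.PosDef.smul ?_ hc
  have := hp.conjTranspose_mul_mul_same (linM_inj A)
  simpa using this

lemma det_hess_chg (hΩ : IsOpen Ω) (hu : ContDiffOn ℝ 2 u Ω)
    {y : EuclideanSpace ℝ (Fin n)} (hy : p + A y ∈ Ω) :
    (hess (chg u c p A ℓ d) y).det = c ^ n *
      (linM (A : EuclideanSpace ℝ (Fin n) →L[ℝ] EuclideanSpace ℝ (Fin n))).det ^ 2 *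
      (hess u (p + A y)).det := by
  rw [hess_chg hΩ hu hy, Matrix.det_smul, Matrix.det_mul, Matrix.det_mul, Matrix.det_transpose,
    Fintype.card_fin]
  ring

/-- the trace form `∑ H⁻¹ᵢⱼ Wᵢⱼ` is invariant -/
lemma trace_form_chg {H W B : Matrix (Fin n) (Fin n) ℝ} (hB : IsUnit B.det) (hH : IsUnit H.det)
    (hc : c ≠ 0) :
    ∑ i, ∑ j, (c • (B.transpose * H * B))⁻¹ i j * (B.transpose * W * B) i j
      = c⁻¹ * ∑ i, ∑ j, H⁻¹ i j * W i j := by
  have hsum : ∀ X Y : Matrix (Fin n) (Fin n) ℝ, ∑ i, ∑ j, X i j * Y i j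
      = (X * Y.transpose).trace := by
    intro X Y
    simp [Matrix.trace, Matrix.mul_apply]
  rw [hsum, hsum]
  have hBt : IsUnit B.transpose.det := by rwa [Matrix.det_transpose]
  have h1 : (c • (B.transpose * H * B))⁻¹ = c⁻¹ • (B⁻¹ * H⁻¹ * B.transpose⁻¹) := by
    apply Matrix.inv_eq_left_inv
    rw [smul_mul_smul_comm, inv_mul_cancel₀ hc, one_smul]
    calc B⁻¹ * H⁻¹ * B.transpose⁻¹ * (B.transpose * H * B)
        = B⁻¹ * H⁻¹ * (B.transpose⁻¹ * B.transpose) * H * B := by noncomm_ring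
      _ = B⁻¹ * (H⁻¹ * H) * B := by
          rw [Matrix.nonsing_inv_mul _ hBt]; noncomm_ring
      _ = 1 := by
          rw [Matrix.nonsing_inv_mul _ hH, mul_one, Matrix.nonsing_inv_mul _ hB]
  rw [h1, Matrix.transpose_mul, Matrix.transpose_mul, Matrix.transpose_transpose,
    Matrix.smul_mul, Matrix.trace_smul, smul_eq_mul]
  congr 1
  calc (B⁻¹ * H⁻¹ * B.transpose⁻¹ * (B.transpose * (W.transpose * B))).trace
      = (B⁻¹ * H⁻¹ * (B.transpose⁻¹ * B.transpose) * W.transpose * B).trace := by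
        congr 1; noncomm_ring
    _ = ((B⁻¹ * (H⁻¹ * W.transpose)) * B).trace := by
        rw [Matrix.nonsing_inv_mul _ hBt]; congr 1; noncomm_ring
    _ = (H⁻¹ * W.transpose).trace := by
        rw [Matrix.trace_mul_comm, ← mul_assoc, Matrix.mul_nonsing_inv _ hB, one_mul]

/-- covariance of the operator `L f = ∑ u^{ij} f_ij` -/
lemma L_chg (hc : c ≠ 0) (hΩ : IsOpen Ω) (hu : ContDiffOn ℝ 2 u Ω)
    {f : EuclideanSpace ℝ (Fin n) → ℝ} (hf : ContDiffOn ℝ 2 f Ω)
    {y : EuclideanSpace ℝ (Fin n)} (hy : p + A y ∈ Ω) (hp : IsUnit (hess u (p + A y)).det) :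
    ∑ i, ∑ j, (hess (chg u c p A ℓ d) y)⁻¹ i j * hess (fun z => f (p + A z)) y i j
      = c⁻¹ * ∑ i, ∑ j, (hess u (p + A y))⁻¹ i j * hess f (p + A y) i j := by
  have h2 := hess_comp p (A : EuclideanSpace ℝ (Fin n) →L[ℝ] EuclideanSpace ℝ (Fin n)) y hΩ hf hy
  simp only [ContinuousLinearEquiv.coe_coe] at h2
  rw [hess_chg hΩ hu hy, h2]
  exact trace_form_chg (isUnit_det_linM A) hp hc

/-- covariance of the bilinear form `⟨∇f, ∇g⟩ = ∑ u^{ij} f_i g_j` -/
lemma grad_form_chg (hc : c ≠ 0) (hΩ : IsOpen Ω) (hu : ContDiffOn ℝ 2 u Ω)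
    {f g : EuclideanSpace ℝ (Fin n) → ℝ}
    {y : EuclideanSpace ℝ (Fin n)} (hy : p + A y ∈ Ω) (hp : IsUnit (hess u (p + A y)).det)
    (hf : DifferentiableAt ℝ f (p + A y)) (hg : DifferentiableAt ℝ g (p + A y)) :
    ∑ i, ∑ j, (hess (chg u c p A ℓ d) y)⁻¹ i j *
        (pd i (fun z => f (p + A z)) y * pd j (fun z => g (p + A z)) y)
      = c⁻¹ * ∑ i, ∑ j, (hess u (p + A y))⁻¹ i j * (pd i f (p + A y) * pd j g (p + A y)) := by
  rw [hess_chg hΩ hu hy]
  set B := linM (A : EuclideanSpace ℝ (Fin n) →L[ℝ] EuclideanSpace ℝ (Fin n)) with hB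
  have h := trace_form_chg (H := hess u (p + A y))
    (W := Matrix.of fun i j => pd i f (p + A y) * pd j g (p + A y)) (B := B)
    (isUnit_det_linM A) hp hc
  simp only [Matrix.of_apply] at h
  rw [← h]
  refine Finset.sum_congr rfl fun i _ => Finset.sum_congr rfl fun j _ => ?_
  congr 1
  have h1 := pd_comp p (A : EuclideanSpace ℝ (Fin n) →L[ℝ] EuclideanSpace ℝ (Fin n)) y hf i
  have h2 := pd_comp p (A : EuclideanSpace ℝ (Fin n) →L[ℝ] EuclideanSpace ℝ (Fin n)) y hg j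
  simp only [ContinuousLinearEquiv.coe_coe] at h1 h2
  rw [h1, h2]
  simp only [Matrix.mul_apply, Matrix.of_apply, Matrix.transpose_apply, Finset.sum_mul_sum]
  rw [Finset.sum_comm]
  refine Finset.sum_congr rfl fun k _ => ?_
  rw [Finset.sum_mul]
  refine Finset.sum_congr rfl fun m _ => ?_
  ring

end chg

lemma two_le_infty : (2 : WithTop ℕ∞) ≤ ∞ := WithTop.coe_le_coe.2 (le_top : (2 : ℕ∞) ≤ ⊤)

lemma contDiffOn_hess {u : EuclideanSpace ℝ (Fin n) → ℝ} {Ω : Set (EuclideanSpace ℝ (Fin n))}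
    (hΩ : IsOpen Ω) (hu : ContDiffOn ℝ ∞ u Ω) (i j : Fin n) :
    ContDiffOn ℝ ∞ (fun x => hess u x i j) Ω := by
  have h1 : ContDiffOn ℝ ∞ (pd j u) Ω := contDiffOn_pd hΩ hu (by exact_mod_cast le_top) j
  exact contDiffOn_pd hΩ h1 (by exact_mod_cast le_top) i

lemma contDiffOn_det_hess {u : EuclideanSpace ℝ (Fin n) → ℝ}
    {Ω : Set (EuclideanSpace ℝ (Fin n))} (hΩ : IsOpen Ω) (hu : ContDiffOn ℝ ∞ u Ω) :
    ContDiffOn ℝ ∞ (fun x => (hess u x).det) Ω := by
  simp only [Matrix.det_apply]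
  refine ContDiffOn.sum fun σ _ => ?_
  refine ContDiffOn.const_smul _ ?_
  exact contDiffOn_prod fun i _ => contDiffOn_hess hΩ hu _ _

lemma contDiffOn_wfun {u : EuclideanSpace ℝ (Fin n) → ℝ}
    {Ω : Set (EuclideanSpace ℝ (Fin n))} (hΩ : IsOpen Ω) (hu : ContDiffOn ℝ ∞ u Ω)
    (hp : ∀ x ∈ Ω, (hess u x).PosDef) : ContDiffOn ℝ ∞ (wfun u) Ω :=
  (contDiffOn_det_hess hΩ hu).rpow_const_of_ne fun x hx => (hp x hx).det_pos.ne'

section chg2

variable {u : EuclideanSpace ℝ (Fin n) → ℝ} {c : ℝ} {p : EuclideanSpace ℝ (Fin n)}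
  {A : EuclideanSpace ℝ (Fin n) ≃L[ℝ] EuclideanSpace ℝ (Fin n)}
  {ℓ : EuclideanSpace ℝ (Fin n) →L[ℝ] ℝ} {d : ℝ} {Ω : Set (EuclideanSpace ℝ (Fin n))}

/-- the constant by which `w` changes -/
noncomputable def wconst (n : ℕ) (c : ℝ)
    (A : EuclideanSpace ℝ (Fin n) ≃L[ℝ] EuclideanSpace ℝ (Fin n)) : ℝ :=
  (c ^ n * (linM (A : EuclideanSpace ℝ (Fin n) →L[ℝ] EuclideanSpace ℝ (Fin n))).det ^ 2) ^
    (-((n : ℝ) + 1) / ((n : ℝ) + 2))

lemma wfun_chg (hc : 0 < c) (hΩ : IsOpen Ω) (hu : ContDiffOn ℝ 2 u Ω)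
    {y : EuclideanSpace ℝ (Fin n)} (hy : p + A y ∈ Ω) (hp : (hess u (p + A y)).PosDef) :
    wfun (chg u c p A ℓ d) y = wconst n c A * wfun u (p + A y) := by
  rw [wfun, det_hess_chg hΩ hu hy, wfun, wconst, Real.mul_rpow (by positivity) hp.det_pos.le]

/-- The affine maximal equation is invariant under affine changes. -/
theorem affineMaximalOn_chg (hc : 0 < c) (hΩ : IsOpen Ω) (hu : ContDiffOn ℝ ∞ u Ω)
    (hp : ∀ x ∈ Ω, (hess u x).PosDef) (h : AffineMaximalOn Ω u) :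
    AffineMaximalOn {y | p + A y ∈ Ω} (chg u c p A ℓ d) := by
  have hu2 : ContDiffOn ℝ 2 u Ω := hu.of_le two_le_infty
  have hw2 : ContDiffOn ℝ 2 (wfun u) Ω := (contDiffOn_wfun hΩ hu hp).of_le two_le_infty
  intro y hy
  have hy' : p + A y ∈ Ω := hy
  have hcont : Continuous fun z => p + A z := by fun_prop
  have hnear : ∀ᶠ z in nhds y, p + A z ∈ Ω := hcont.continuousAt.eventually (hΩ.mem_nhds hy)
  have hw : wfun (chg u c p A ℓ d) =ᶠ[nhds y]
      chg (wfun u) (wconst n c A) p A 0 0 := by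
    filter_upwards [hnear] with z hz
    rw [wfun_chg hc hΩ hu2 hz (hp _ hz)]
    simp [chg]
  set B := linM (A : EuclideanSpace ℝ (Fin n) →L[ℝ] EuclideanSpace ℝ (Fin n)) with hB
  have h1 : hess (wfun (chg u c p A ℓ d)) y = wconst n c A •
      (B.transpose * hess (wfun u) (p + A y) * B) := by
    rw [hess_congr hw, hess_chg hΩ hw2 hy']
  have h0 := h _ hy'
  have h3 : ∀ i j, pd i (pd j (wfun u)) (p + A y) = hess (wfun u) (p + A y) i j :=
    fun i j => rfl
  simp only [h3, mul_assoc, ← Finset.mul_sum] at h0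
  have hdet : (hess u (p + A y)).det ≠ 0 := (hp _ hy').det_pos.ne'
  have h4 := (mul_eq_zero.1 h0).resolve_left hdet
  have h5 := trace_form_chg (H := hess u (p + A y)) (W := hess (wfun u) (p + A y))
    (isUnit_det_linM A) (isUnit_iff_ne_zero.2 hdet) hc.ne'
  rw [h4, mul_zero, ← hB, ← hess_chg hΩ hu2 hy' (c := c) (ℓ := ℓ) (d := d)] at h5
  have h6 : ∀ i j, (hess (chg u c p A ℓ d) y).det * (hess (chg u c p A ℓ d) y)⁻¹ i j *
      pd i (pd j (wfun (chg u c p A ℓ d))) y = ((hess (chg u c p A ℓ d) y).det *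
      wconst n c A) * ((hess (chg u c p A ℓ d) y)⁻¹ i j *
        (B.transpose * hess (wfun u) (p + A y) * B) i j) := by
    intro i j
    have h2 : pd i (pd j (wfun (chg u c p A ℓ d))) y
      = hess (wfun (chg u c p A ℓ d)) y i j := rfl
    rw [h2, h1, Matrix.smul_apply, smul_eq_mul]
    ring
  simp only [h6, ← Finset.mul_sum, h5, mul_zero]

end chg2

end Vale.Agent.P252.H474
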