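import Vale.Agent.P252.R.Spec
import Vale.Agent.P252.H474.Affine

/-!
# The change of variables `tr`: formulas, `Stmt_epiPull`, `Stmt_trans`
-/

open scoped ContDiff Topology
open Filter MeasureTheory

namespace Vale.Agent.P252.R

open Vale.Agent.P252.H474

variable {n : ℕ} {u : En n → ℝ} {T : En n ≃L[ℝ] En n} {b : En n} {α : ℝ} {c : Fin n → ℝ}
  {d : ℝ} {Ω : Set (En n)}

/-- the linear functional `x ↦ ∑ c_i x_i` -/
noncomputable def cl (c : Fin n → ℝ) : En n →L[ℝ] ℝ :=
  ∑ i, c i • (EuclideanSpace.proj i : En n →L[ℝ] ℝ)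

lemma cl_apply (c : Fin n → ℝ) (x : En n) : cl c x = ∑ i, c i * x i := by
  simp [cl, _root_.sum_apply]

lemma cl_single (c : Fin n → ℝ) (i : Fin n) : cl c (EuclideanSpace.single i 1) = c i := by
  simp [cl_apply]

lemma tr_eq_chg : tr u T b α c d = chg u α b T (cl c) d := by
  ext x
  simp only [tr, chg, cl_apply, add_comm (T x) b]
  ring

lemma mem_trD {x : En n} : x ∈ trD Ω T b ↔ T x + b ∈ Ω := Iff.rfl

lemma trD_eq : trD Ω T b = {x | b + T x ∈ Ω} := by
  ext x; simp [trD, add_comm]

lemma isOpen_trD (hΩ : IsOpen Ω) : IsOpen (trD Ω T b) := by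
  rw [trD_eq]; exact isOpen_pre hΩ

lemma convex_trD (hΩ : Convex ℝ Ω) : Convex ℝ (trD Ω T b) := by
  rw [trD_eq]; exact convex_pre hΩ

lemma nonempty_trD (hΩ : Ω.Nonempty) : (trD Ω T b).Nonempty := by
  rw [trD_eq]; exact nonempty_pre hΩ

/-- the matrix of `T` -/
noncomputable def mT (T : En n ≃L[ℝ] En n) : Matrix (Fin n) (Fin n) ℝ :=
  linM (T : En n →L[ℝ] En n)

lemma mT_apply (T : En n ≃L[ℝ] En n) (k i : Fin n) :
    mT T k i = T (EuclideanSpace.single i 1) k := rfl

lemma T_apply (T : En n ≃L[ℝ] En n) (x : En n) (k : Fin n) : T x k = ∑ i, mT T k i * x i :=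
  linM_mulVec (T : En n →L[ℝ] En n) x k

lemma isUnit_det_mT (T : En n ≃L[ℝ] En n) : IsUnit (mT T).det := isUnit_det_linM T

lemma det_mT_sq_pos (T : En n ≃L[ℝ] En n) : 0 < (mT T).det ^ 2 := by
  have := (isUnit_det_mT T).ne_zero
  positivity

lemma SC.two (h : SC Ω u) : ContDiffOn ℝ 2 u Ω := h.sm.of_le two_le_infty

lemma SC.diffAt (h : SC Ω u) {x : En n} (hx : x ∈ Ω) : DifferentiableAt ℝ u x :=
  (h.two.differentiableOn (by norm_num)).differentiableAt (h.op.mem_nhds hx)

lemma SC.contDiffAt (h : SC Ω u) {x : En n} (hx : x ∈ Ω) : ContDiffAt ℝ ∞ u x :=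
  h.sm.contDiffAt (h.op.mem_nhds hx)

/-- gradient of `tr` -/
lemma pd_tr {x : En n} (hu : DifferentiableAt ℝ u (T x + b)) (i : Fin n) :
    pd i (tr u T b α c d) x = α * ∑ k, mT T k i * pd k u (T x + b) + c i := by
  rw [tr_eq_chg, pd_chg (by rwa [add_comm]), cl_single, add_comm b]
  rfl

/-- gradient of `tr`, as a covector -/
lemma gr_tr {x : En n} (hu : DifferentiableAt ℝ u (T x + b)) :
    gr (tr u T b α c d) x = α • (mT T).transpose.mulVec (gr u (T x + b)) + c := by
  ext i
  simp [gr, pd_tr hu, Matrix.mulVec, dotProduct]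

/-- Hessian of `tr` -/
lemma hess_tr (hΩ : IsOpen Ω) (hu : ContDiffOn ℝ 2 u Ω) {x : En n} (hx : T x + b ∈ Ω) :
    hess (tr u T b α c d) x = α • ((mT T).transpose * hess u (T x + b) * mT T) := by
  rw [tr_eq_chg, hess_chg hΩ hu (by rwa [add_comm]), add_comm b]
  rfl

lemma sum_form (H : Matrix (Fin n) (Fin n) ℝ) (v w : Fin n → ℝ) :
    ∑ i, ∑ j, H i j * v i * w j = dotProduct v (H.mulVec w) := by
  simp only [dotProduct, Matrix.mulVec, Finset.mul_sum]
  exact Finset.sum_congr rfl fun i _ => Finset.sum_congr rfl fun j _ => by ring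

lemma T_ofLp (T : En n ≃L[ℝ] En n) (x : En n) : (T x).ofLp = (mT T).mulVec x.ofLp := by
  ext k; rw [T_apply]; rfl

/-- `D²(tr u)(v,w) = α D²u(Tv,Tw)` -/
lemma hess_tr_form (hΩ : IsOpen Ω) (hu : ContDiffOn ℝ 2 u Ω) {x : En n} (hx : T x + b ∈ Ω)
    (v w : En n) :
    ∑ i, ∑ j, hess (tr u T b α c d) x i j * v i * w j =
      α * ∑ i, ∑ j, hess u (T x + b) i j * T v i * T w j := by
  rw [hess_tr hΩ hu hx, sum_form, sum_form, T_ofLp, T_ofLp, Matrix.smul_mulVec,
    dotProduct_smul, smul_eq_mul, ← Matrix.mulVec_mulVec, ← Matrix.mulVec_mulVec,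
    Matrix.dotProduct_mulVec, Matrix.vecMul_transpose]

lemma hess_tr_apply (hΩ : IsOpen Ω) (hu : ContDiffOn ℝ 2 u Ω) {x : En n} (hx : T x + b ∈ Ω)
    (i j : Fin n) : hess (tr u T b α c d) x i j =
      α * ∑ k, ∑ l, hess u (T x + b) k l * mT T k i * mT T l j := by
  have h := hess_tr_form (b := b) (α := α) (c := c) (d := d) hΩ hu hx
    (EuclideanSpace.single i 1) (EuclideanSpace.single j 1)
  simp only [← mT_apply] at h
  rw [← h]
  simp

lemma dt_tr (hΩ : IsOpen Ω) (hu : ContDiffOn ℝ 2 u Ω) {x : En n} (hx : T x + b ∈ Ω) :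
    dt (tr u T b α c d) x = α ^ n * (mT T).det ^ 2 * dt u (T x + b) := by
  rw [dt, hess_tr hΩ hu hx, Matrix.det_smul, Matrix.det_mul, Matrix.det_mul,
    Matrix.det_transpose, Fintype.card_fin, dt]
  ring

lemma posDef_tr (hα : 0 < α) (hΩ : IsOpen Ω) (hu : ContDiffOn ℝ 2 u Ω) {x : En n}
    (hx : T x + b ∈ Ω) (hp : (hess u (T x + b)).PosDef) :
    (hess (tr u T b α c d) x).PosDef := by
  rw [tr_eq_chg]
  refine posDef_chg hα hΩ hu (by rwa [add_comm]) (by rwa [add_comm b])

lemma SC.dt_pos (h : SC Ω u) {x : En n} (hx : x ∈ Ω) : 0 < dt u x := (h.pos x hx).det_pos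

lemma ell_tr (h : SC Ω u) (hα : 0 < α) {x : En n} (hx : T x + b ∈ Ω) :
    ell (tr u T b α c d) x = ell u (T x + b) + Real.log (α ^ n * (mT T).det ^ 2) := by
  have h1 := det_mT_sq_pos T
  rw [ell, dt_tr h.op h.two hx, ell, Real.log_mul (by positivity) (h.dt_pos hx).ne', add_comm]

theorem sc_tr (h : SC Ω u) (hα : 0 < α) : SC (trD Ω T b) (tr u T b α c d) where
  op := isOpen_trD h.op
  sm := by
    rw [tr_eq_chg, trD_eq]
    exact contDiffOn_chg (m := ⊤) (by exact_mod_cast h.sm)
  pos := fun x hx => posDef_tr hα h.op h.two hx (h.pos _ hx)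

/-- `ip` is covariant -/
lemma ip_tr (hΩ : IsOpen Ω) (hu : ContDiffOn ℝ 2 u Ω) (hα : α ≠ 0) {x : En n}
    (hx : T x + b ∈ Ω) (hp : IsUnit (hess u (T x + b)).det) (v w : Fin n → ℝ) :
    ip (tr u T b α c d) x ((mT T).transpose.mulVec v) ((mT T).transpose.mulVec w)
      = α⁻¹ * ip u (T x + b) v w := by
  set B := mT T with hB
  have h := trace_form_chg (H := hess u (T x + b)) (W := Matrix.of fun i j => v i * w j)
    (B := B) (isUnit_det_mT T) hp hα
  simp only [Matrix.of_apply] at h
  simp only [ip, mul_assoc]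
  rw [← h, hess_tr hΩ hu hx]
  refine Finset.sum_congr rfl fun i _ => Finset.sum_congr rfl fun j _ => ?_
  congr 1
  simp only [Matrix.mul_apply, Matrix.of_apply, Matrix.transpose_apply, Matrix.mulVec,
    dotProduct, Finset.sum_mul_sum]
  rw [Finset.sum_comm]
  refine Finset.sum_congr rfl fun k _ => ?_
  rw [Finset.sum_mul]
  refine Finset.sum_congr rfl fun m _ => ?_
  ring

/-- gradient of a composition -/
lemma gr_comp {f : En n → ℝ} {x : En n} (hf : DifferentiableAt ℝ f (T x + b)) :
    gr (fun z => f (T z + b)) x = (mT T).transpose.mulVec (gr f (T x + b)) := by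
  have := gr_tr (u := f) (T := T) (b := b) (α := 1) (c := 0) (d := 0) hf
  have h2 : tr f T b 1 0 0 = fun z => f (T z + b) := by ext z; simp [tr]
  rw [h2] at this
  rw [this]; simp

/-- covariance of the form `⟨∇f,∇g⟩` -/
lemma ip_gr_tr (hΩ : IsOpen Ω) (hu : ContDiffOn ℝ 2 u Ω) (hα : α ≠ 0) {x : En n}
    (hx : T x + b ∈ Ω) (hp : IsUnit (hess u (T x + b)).det) {f g : En n → ℝ}
    (hf : DifferentiableAt ℝ f (T x + b)) (hg : DifferentiableAt ℝ g (T x + b)) :
    ip (tr u T b α c d) x (gr (fun z => f (T z + b)) x) (gr (fun z => g (T z + b)) x)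
      = α⁻¹ * ip u (T x + b) (gr f (T x + b)) (gr g (T x + b)) := by
  rw [gr_comp hf, gr_comp hg, ip_tr hΩ hu hα hx hp]

/-- covariance of `L` -/
lemma Lop_tr (hΩ : IsOpen Ω) (hu : ContDiffOn ℝ 2 u Ω) (hα : α ≠ 0) {x : En n}
    (hx : T x + b ∈ Ω) (hp : IsUnit (hess u (T x + b)).det) {f : En n → ℝ}
    (hf : ContDiffOn ℝ 2 f Ω) :
    Lop (tr u T b α c d) (fun z => f (T z + b)) x = α⁻¹ * Lop u f (T x + b) := by
  have h := L_chg (u := u) (c := α) (p := b) (A := T) (ℓ := cl c) (d := d) hα hΩ hu hf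
    (y := x) (by rwa [add_comm]) (by rwa [add_comm b])
  rw [← tr_eq_chg] at h
  simp only [add_comm b] at h
  exact h

lemma gr_congr {f g : En n → ℝ} {x : En n} (h : f =ᶠ[𝓝 x] g) : gr f x = gr g x := by
  ext i; exact pd_congr h i

lemma Lop_congr {f g : En n → ℝ} {x : En n} (h : f =ᶠ[𝓝 x] g) : Lop u f x = Lop u g x := by
  unfold Lop
  refine Finset.sum_congr rfl fun i _ => Finset.sum_congr rfl fun j _ => ?_
  congr 1
  exact pd_congr (pd_eventually_congr h j) i

lemma gr_add_const (f : En n → ℝ) (k : ℝ) (x : En n) : gr (fun z => f z + k) x = gr f x := by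
  ext i; simp [gr, pd]

lemma pd_add_const (f : En n → ℝ) (k : ℝ) (i : Fin n) : pd i (fun z => f z + k) = pd i f := by
  ext x; simp [pd]

lemma Lop_add_const (f : En n → ℝ) (k : ℝ) (x : En n) :
    Lop u (fun z => f z + k) x = Lop u f x := by
  simp only [Lop, pd_add_const]

lemma contDiffOn_ell (h : SC Ω u) : ContDiffOn ℝ ∞ (ell u) Ω :=
  (contDiffOn_det_hess h.op h.sm).log fun x hx => (h.dt_pos hx).ne'

theorem amLoc_tr (h : AMLoc Ω u) (hα : 0 < α) : AMLoc (trD Ω T b) (tr u T b α c d) := by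
  refine { sc_tr h.toSC hα with am := ?_ }
  intro x hx
  have hx' : T x + b ∈ Ω := hx
  have hd : IsUnit (hess u (T x + b)).det := (h.toSC.dt_pos hx').ne'.isUnit
  have hnear : ∀ᶠ z in 𝓝 x, T z + b ∈ Ω := (isOpen_trD (T := T) (b := b) h.op).mem_nhds hx
  have hl : ell (tr u T b α c d) =ᶠ[𝓝 x]
      fun z => ell u (T z + b) + Real.log (α ^ n * (mT T).det ^ 2) := by
    filter_upwards [hnear] with z hz
    exact ell_tr h.toSC hα hz
  have hell : ContDiffOn ℝ 2 (ell u) Ω := (contDiffOn_ell h.toSC).of_le two_le_infty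
  have hdf : DifferentiableAt ℝ (ell u) (T x + b) :=
    (hell.differentiableOn (by norm_num)).differentiableAt (h.op.mem_nhds hx')
  rw [Lop_congr hl, gr_congr hl, Lop_add_const, gr_add_const,
    Lop_tr h.op h.toSC.two hα.ne' hx' hd hell,
    ip_gr_tr h.op h.toSC.two hα.ne' hx' hd hdf hdf, h.am _ hx']
  ring

/-- **T0.** -/
theorem epiPull (n : ℕ) : Stmt_epiPull n := by
  intro Ω u T b α c d hα
  ext p
  simp only [epi, pull, Set.mem_ofPred_eq, mem_trD, tr]
  refine and_congr_right fun _ => ?_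
  rw [le_div_iff₀ hα]
  constructor <;> intro h <;> linarith

lemma isClosed_pull {K : Set (En n × ℝ)} (hK : IsClosed K) : IsClosed (pull T b α c d K) := by
  refine hK.preimage ?_
  have h1 : Continuous fun p : En n × ℝ => ∑ i, c i * p.1 i := by
    have : (fun p : En n × ℝ => ∑ i, c i * p.1 i) = fun p => cl c p.1 := by
      ext p; rw [cl_apply]
    rw [this]; fun_prop
  refine Continuous.prodMk (by fun_prop) ?_
  exact ((continuous_snd.sub h1).sub continuous_const).div_const α

/-- **T1.** -/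
theorem trans (n : ℕ) : Stmt_trans n := by
  intro Ω u T b α c d hα h
  refine { amLoc_tr h.toAMLoc hα with
    ne := nonempty_trD h.ne
    cv := convex_trD h.cv
    cl := ?_ }
  rw [epiPull n Ω u T b α c d hα]
  exact isClosed_pull h.cl

/-! ### Further formulas -/

/-- `D(tr u)(x)·y = α Du(Tx+b)·Ty + c·y` -/
lemma sum_pd_tr {x : En n} (hu : DifferentiableAt ℝ u (T x + b)) (y : En n) :
    ∑ i, pd i (tr u T b α c d) x * y i =
      α * ∑ k, pd k u (T x + b) * T y k + ∑ i, c i * y i := by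
  simp only [pd_tr hu, add_mul, Finset.sum_add_distrib, T_apply, Finset.mul_sum, Finset.sum_mul]
  rw [Finset.sum_comm]
  congr 1
  exact Finset.sum_congr rfl fun i _ => Finset.sum_congr rfl fun j _ => by ring

lemma T_sub_apply (X x : En n) (k : Fin n) : T (X - x) k = (T X + b) k - (T x + b) k := by
  rw [map_sub]; simp

lemma Lam_tr {x : En n} (hu : DifferentiableAt ℝ u (T x + b)) (hα : α ≠ 0) (X : En n) (zX : ℝ) :
    Lam (tr u T b α c d) X zX x =
      α * Lam u (T X + b) ((zX - ∑ i, c i * X i - d) / α) (T x + b) := by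
  have h := sum_pd_tr (α := α) (c := c) (d := d) hu (X - x)
  simp only [T_sub_apply (b := b)] at h
  simp only [Lam]
  have h1 : ∀ i, (X - x) i = X i - x i := fun i => rfl
  simp only [h1] at h
  rw [h]
  simp only [tr, mul_sub, Finset.sum_sub_distrib]
  field_simp
  ring

lemma brg_tr {a x : En n} (hu : DifferentiableAt ℝ u (T a + b)) :
    brg (tr u T b α c d) a x = α * brg u (T a + b) (T x + b) := by
  have h := sum_pd_tr (α := α) (c := c) (d := d) hu (x - a)
  simp only [T_sub_apply (b := b)] at h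
  have h1 : ∀ i, (x - a) i = x i - a i := fun i => rfl
  simp only [h1] at h
  simp only [brg]
  rw [h]
  simp only [tr, mul_sub, Finset.sum_sub_distrib]
  ring

lemma leg_tr {x : En n} (hu : DifferentiableAt ℝ u (T x + b)) :
    leg (tr u T b α c d) x = α * leg u (T x + b) - α * (∑ k, b k * pd k u (T x + b)) - d := by
  have h := sum_pd_tr (α := α) (c := c) (d := d) hu x
  simp only [leg, mul_comm _ (pd _ _ _)]
  rw [h]
  have h1 : ∀ k, (T x + b) k = T x k + b k := fun k => rfl
  simp only [tr, h1, mul_add, Finset.sum_add_distrib]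
  ring

/-- `B` of a block diagonal change of variables -/
lemma Bf_tr {k : ℕ} {x : En n} (hu : DifferentiableAt ℝ u (T x + b)) {a : Fin n → ℝ}
    (hT : ∀ i : Fin n, i.val < k → T (EuclideanSpace.single i 1) = EuclideanSpace.single i (a i))
    (hT' : ∀ i : Fin n, i.val < k → T x i = a i * x i) (hb : ∀ i : Fin n, i.val < k → b i = 0) :
    Bf k (tr u T b α c d) x =
      α * Bf k u (T x + b) + (∑ i : Fin n, if i.val < k then 0 else c i * x i) + d := by
  have h0 : tr u T b α c d x = α * u (T x + b) + ∑ i, c i * x i + d := rfl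
  simp only [Bf, h0]
  have h1 : ∀ i : Fin n, (if i.val < k then x i * pd i (tr u T b α c d) x else 0) =
      α * (if i.val < k then (T x + b) i * pd i u (T x + b) else 0) +
        (if i.val < k then c i * x i else 0) := by
    intro i
    split_ifs with hi
    · have h2 : ∑ k, mT T k i * pd k u (T x + b) = a i * pd i u (T x + b) := by
        rw [Finset.sum_eq_single i]
        · rw [mT_apply, hT i hi]; simp
        · intro k _ hk
          rw [mT_apply, hT i hi]; simp [hk]
        · simp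
      have h3 : (T x + b) i = a i * x i := by
        have : (T x + b) i = T x i + b i := rfl
        rw [this, hT' i hi, hb i hi, add_zero]
      rw [pd_tr hu, h2, h3]; ring
    · simp
  have h2 : ∑ i, c i * x i = (∑ i : Fin n, if i.val < k then c i * x i else 0) +
      ∑ i : Fin n, if i.val < k then 0 else c i * x i := by
    rw [← Finset.sum_add_distrib]
    exact Finset.sum_congr rfl fun i _ => by split_ifs <;> simp
  have h3 : ∑ i : Fin n, (if i.val < k then x i * pd i (tr u T b α c d) x else 0) =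
      α * (∑ i : Fin n,
      if i.val < k then (T x + b) i * pd i u (T x + b) else 0) +
        ∑ i : Fin n, if i.val < k then c i * x i else 0 := by
    rw [Finset.mul_sum, ← Finset.sum_add_distrib]
    exact Finset.sum_congr rfl fun i _ => h1 i
  rw [h3, h2]
  ring

/-- the affine function `nu` of the changed graph is an affine function of the graph -/
lemma nu_tr (hα : α ≠ 0) (α' : Fin n → ℝ) (β γ : ℝ) (x : En n) :
    nu u α' β γ (T x + b) = nu (tr u T b α c d)
      (fun i => (∑ k, mT T k i * α' k) - β / α * c i) (β / α)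
      (∑ k, α' k * b k + γ - β / α * d) x := by
  have h1 : ∀ k, (T x + b) k = T x k + b k := fun k => rfl
  simp only [nu, tr, h1, mul_add, Finset.sum_add_distrib, sub_mul, Finset.sum_sub_distrib,
    T_apply, Finset.mul_sum, Finset.sum_mul]
  have h2 : ∑ i, ∑ j, α' i * (mT T i j * x j) = ∑ j, ∑ i, mT T i j * α' i * x j := by
    rw [Finset.sum_comm]
    exact Finset.sum_congr rfl fun i _ => Finset.sum_congr rfl fun j _ => by ring
  rw [h2]
  simp only [← Finset.mul_sum, mul_assoc]
  field_simp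
  ring

lemma map_T_add (T : En n ≃L[ℝ] En n) (b : En n) :
    Measure.map (fun x => T x + b) (volume : Measure (En n)) =
      ENNReal.ofReal |(mT T).det|⁻¹ • volume := by
  have hdet : LinearMap.det ((T : En n →L[ℝ] En n) : En n →ₗ[ℝ] En n) = (mT T).det :=
    (linM_det_eq (T : En n →L[ℝ] En n)).symm
  have h0 : LinearMap.det ((T : En n →L[ℝ] En n) : En n →ₗ[ℝ] En n) ≠ 0 := by
    rw [hdet]; exact (isUnit_det_mT T).ne_zero
  have h1 := Measure.map_linearMap_addHaar_eq_smul_addHaar (volume : Measure (En n)) h0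
  have h2 : Measure.map (fun x => T x + b) (volume : Measure (En n)) =
      Measure.map (fun y => y + b) (Measure.map T (volume : Measure (En n))) := by
    rw [Measure.map_map (by fun_prop) (by fun_prop)]; rfl
  have h3 : Measure.map T (volume : Measure (En n)) =
      ENNReal.ofReal |(mT T).det|⁻¹ • volume := by
    rw [← hdet, ← abs_inv]; exact h1
  rw [h2, h3, Measure.map_smul]
  congr 1
  exact (measurePreserving_add_right volume b).map_eq

/-- change of variables in integrals over `Ω` -/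
lemma integral_tr (T : En n ≃L[ℝ] En n) (b : En n) (F : En n → ℝ) (S : Set (En n)) :
    ∫ x in {x | T x + b ∈ S}, F (T x + b) = |(mT T).det|⁻¹ * ∫ y in S, F y := by
  have hemb : MeasurableEmbedding fun x => T x + b :=
    ((T.toHomeomorph.trans (Homeomorph.addRight b)).toMeasurableEquiv).measurableEmbedding
  have h := hemb.setIntegral_map (μ := volume) F S
  rw [map_T_add] at h
  have h2 : (fun x => T x + b) ⁻¹' S = {x | T x + b ∈ S} := rfl
  rw [← h2, ← h, Measure.restrict_smul, integral_smul_measure,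
    ENNReal.toReal_ofReal (by positivity), smul_eq_mul]

lemma integral_tr' (T : En n ≃L[ℝ] En n) (b : En n) (F : En n → ℝ) (S : Set (En n)) :
    ∫ y in S, F y = |(mT T).det| * ∫ x in {x | T x + b ∈ S}, F (T x + b) := by
  have h0 : |(mT T).det| ≠ 0 := abs_ne_zero.2 (isUnit_det_mT T).ne_zero
  rw [integral_tr, ← mul_assoc, mul_inv_cancel₀ h0, one_mul]

lemma volume_tr (T : En n ≃L[ℝ] En n) (b : En n) (S : Set (En n)) :
    volume {x | T x + b ∈ S} = ENNReal.ofReal |(mT T).det|⁻¹ * volume S := by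
  have hemb : MeasurableEmbedding fun x => T x + b :=
    ((T.toHomeomorph.trans (Homeomorph.addRight b)).toMeasurableEquiv).measurableEmbedding
  have h := hemb.map_apply volume S
  rw [map_T_add] at h
  exact h.symm

end Vale.Agent.P252.R
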